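import Crest.Agent.R57.Main

/-!
# Row 57: an arc-minimal counterexample has strictly concave neighbourhood sizes
-/

set_option autoImplicit false

namespace Crest.Agent.R57

open Finset

open scoped Classical

variable {V : Type*} [Fintype V]

/-- first out-neighbourhood -/
noncomputable def out (r : V → V → Prop) (v : V) : Finset V := univ.filter (fun u => r v u)

/-- second out-neighbourhood -/
noncomputable def sec (r : V → V → Prop) (v : V) : Finset V :=
  univ.filter (fun w => w ≠ v ∧ ¬ r v w ∧ ∃ u, r v u ∧ r u w)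

/-- the arcs -/
noncomputable def arcs (r : V → V → Prop) : Finset (V × V) := univ.filter (fun z => r z.1 z.2)

theorem mem_out {r : V → V → Prop} {v u : V} : u ∈ out r v ↔ r v u := by simp [out]

theorem mem_sec {r : V → V → Prop} {v w : V} :
    w ∈ sec r v ↔ w ≠ v ∧ ¬ r v w ∧ ∃ u, r v u ∧ r u w := by simp [sec]

theorem concave_of_minimal (r : V → V → Prop) (hno : ∀ v, (sec r v).card < (out r v).card)
    (ih : ∀ r' : V → V → Prop, (∀ a b, r' a b → r a b) → (arcs r').card < (arcs r).card →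
      ∃ v, (out r' v).card ≤ (sec r' v).card)
    (S : Finset V) (hS : nb (fun a b => a = b ∨ r a b) S ≠ S) :
    (nb (fun a b => a = b ∨ r a b) (nb (fun a b => a = b ∨ r a b) S)).card + S.card <
      2 * (nb (fun a b => a = b ∨ r a b) S).card := by
  set F : V → V → Prop := fun a b => a = b ∨ r a b with hF
  by_contra hcon
  have hsub : ∀ S : Finset V, S ⊆ nb F S := fun S a ha => mem_nb.2 ⟨a, ha, Or.inl rfl⟩
  set B := nb F S \ S with hB
  have hBne : B.Nonempty := by
    rw [hB, sdiff_nonempty]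
    exact fun h => hS (Subset.antisymm h (hsub S))
  let φ : Finset V → ℤ := fun T => (T.card : ℤ) - (nb F T \ (S ∪ T)).card
  have hφB : φ B ≤ 0 := by
    have h1 : nb F (nb F S) \ nb F S ⊆ nb F B \ (S ∪ B) := by
      intro w hw
      obtain ⟨hw1, hw2⟩ := mem_sdiff.1 hw
      obtain ⟨a, ha, hF'⟩ := mem_nb.1 hw1
      refine mem_sdiff.2 ⟨mem_nb.2 ⟨a, mem_sdiff.2 ⟨ha, fun haS => ?_⟩, hF'⟩, fun h => ?_⟩
      · exact hw2 (mem_nb.2 ⟨a, haS, hF'⟩)
      · rcases mem_union.1 h with h | h
        · exact hw2 (hsub S h)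
        · exact hw2 (mem_sdiff.1 h).1
    have h2 := card_le_card h1
    have h3 := card_sdiff_add_card_eq_card (hsub (nb F S))
    have h4 : B.card + S.card = (nb F S).card := card_sdiff_add_card_eq_card (hsub S)
    simp only [φ]
    omega
  have hφ0 : φ ∅ = 0 := by
    have : nb F (∅ : Finset V) = ∅ := by simp [nb]
    simp [φ, this]
  obtain ⟨T, hTB, hTne, hmax⟩ : ∃ T, T ⊆ B ∧ T ≠ B ∧ ∀ T', T' ⊆ B → φ T' ≤ φ T := by
    obtain ⟨T, hT, hmax⟩ := exists_max_image B.powerset φ ⟨∅, empty_mem_powerset _⟩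
    by_cases hTB : T = B
    · refine ⟨∅, empty_subset _, hBne.ne_empty.symm, fun T' hT' => ?_⟩
      have := hmax T' (mem_powerset.2 hT')
      rw [hTB] at this
      omega
    · exact ⟨T, mem_powerset.1 hT, hTB, fun T' hT' => hmax T' (mem_powerset.2 hT')⟩
  obtain ⟨b0, hb0B, hb0T⟩ : ∃ b, b ∈ B ∧ b ∉ T := by
    by_contra h
    push Not at h
    exact hTne (Subset.antisymm hTB h)
  let r' : V → V → Prop := fun a b => r a b ∧ ¬ (a ∈ S ∧ b ∈ B \ T)
  obtain ⟨v, hv⟩ := ih r' (fun a b h => h.1) (by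
    apply card_lt_card
    refine ⟨fun z hz => ?_, fun h => ?_⟩
    · simp only [arcs, mem_filter, mem_univ, true_and] at hz ⊢
      exact hz.1
    · obtain ⟨h1, h2⟩ := mem_sdiff.1 hb0B
      obtain ⟨a, ha, hF'⟩ := mem_nb.1 h1
      rcases hF' with rfl | hr
      · exact h2 ha
      · have : (a, b0) ∈ arcs r' := h (by simp [arcs, hr])
        simp only [arcs, mem_filter, mem_univ, true_and] at this
        exact this.2 ⟨ha, mem_sdiff.2 ⟨hb0B, hb0T⟩⟩)
  have hnov := hno v
  by_cases hvS : v ∈ S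
  · set U := out r v ∩ (B \ T) with hU
    have hUB : U ⊆ B \ T := inter_subset_right
    have e1 : (out r v).card ≤ (out r' v).card + U.card := by
      refine le_trans (card_le_card ?_) (card_union_le _ _)
      intro u hu
      by_cases h : u ∈ B \ T
      · exact mem_union_right _ (mem_inter.2 ⟨hu, h⟩)
      · exact mem_union_left _ (mem_out.2 ⟨mem_out.1 hu, fun h' => h h'.2⟩)
    set G := nb F T \ (S ∪ T) with hG
    set New := nb F U \ (S ∪ T ∪ U ∪ nb F T) with hNew
    have e2 := hmax (T ∪ U) (union_subset hTB (hUB.trans sdiff_subset))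
    have e3 : (T ∪ U).card = T.card + U.card := by
      apply card_union_of_disjoint
      rw [disjoint_left]
      intro a ha ha'
      exact (mem_sdiff.1 (hUB ha')).2 ha
    have e4 : (nb F (T ∪ U) \ (S ∪ (T ∪ U))).card ≤ (G \ U).card + New.card := by
      refine le_trans (card_le_card ?_) (card_union_le _ _)
      intro w hw
      obtain ⟨hw1, hw2⟩ := mem_sdiff.1 hw
      have hwS : w ∉ S := fun h => hw2 (mem_union_left _ h)
      have hwT : w ∉ T := fun h => hw2 (mem_union_right _ (mem_union_left _ h))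
      have hwU : w ∉ U := fun h => hw2 (mem_union_right _ (mem_union_right _ h))
      by_cases h : w ∈ nb F T
      · refine mem_union_left _ (mem_sdiff.2 ⟨mem_sdiff.2 ⟨h, ?_⟩, hwU⟩)
        simp [hwS, hwT]
      · obtain ⟨a, ha, hF'⟩ := mem_nb.1 hw1
        rcases mem_union.1 ha with ha | ha
        · exact absurd (mem_nb.2 ⟨a, ha, hF'⟩) h
        · refine mem_union_right _ (mem_sdiff.2 ⟨mem_nb.2 ⟨a, ha, hF'⟩, ?_⟩)
          simp [hwS, hwT, hwU, h]
    have e5 := card_sdiff_add_card_inter G U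
    -- out-neighbours of elements of `S`
    have hstep : ∀ a, a ∈ S → ∀ b, r a b → b ∈ S ∨ b ∈ T ∨ b ∈ B \ T := by
      intro a ha b hab
      by_cases h1 : b ∈ S
      · exact Or.inl h1
      · by_cases h2 : b ∈ T
        · exact Or.inr (Or.inl h2)
        · exact Or.inr (Or.inr (mem_sdiff.2 ⟨mem_sdiff.2 ⟨mem_nb.2 ⟨a, ha, Or.inr hab⟩, h1⟩, h2⟩))
    have hsec' : ∀ w ∈ sec r' v, w ∈ S ∨ w ∈ T ∨ w ∈ nb F T := by
      intro w hw
      obtain ⟨-, -, u, h1, h2⟩ := mem_sec.1 hw
      rcases hstep v hvS u h1.1 with h | h | h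
      · rcases hstep u h w h2.1 with h' | h' | h'
        · exact Or.inl h'
        · exact Or.inr (Or.inl h')
        · exact absurd ⟨h, h'⟩ h2.2
      · exact Or.inr (Or.inr (mem_nb.2 ⟨u, h, Or.inr h2.1⟩))
      · exact absurd ⟨hvS, h⟩ h1.2
    have e6 : (sec r' v ∩ U).card ≤ (G ∩ U).card := by
      apply card_le_card
      intro w hw
      obtain ⟨hw1, hw2⟩ := mem_inter.1 hw
      obtain ⟨hwB, hwT⟩ := mem_sdiff.1 (hUB hw2)
      have hwS : w ∉ S := (mem_sdiff.1 hwB).2
      refine mem_inter.2 ⟨mem_sdiff.2 ⟨?_, by simp [hwS, hwT]⟩, hw2⟩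
      rcases hsec' w hw1 with h | h | h
      · exact absurd h hwS
      · exact absurd h hwT
      · exact h
    have e7 := card_sdiff_add_card_inter (sec r' v) U
    have e8 : (sec r' v \ U).card + New.card ≤ (sec r v).card := by
      rw [← card_union_of_disjoint]
      · apply card_le_card
        intro w hw
        rcases mem_union.1 hw with hw | hw
        · obtain ⟨hw1, hw2⟩ := mem_sdiff.1 hw
          obtain ⟨h1, h2, u, h3, h4⟩ := mem_sec.1 hw1
          refine mem_sec.2 ⟨h1, fun h => ?_, u, h3.1, h4.1⟩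
          exact h2 ⟨h, fun h' => hw2 (mem_inter.2 ⟨mem_out.2 h, h'.2⟩)⟩
        · obtain ⟨hw1, hw2⟩ := mem_sdiff.1 hw
          simp only [mem_union, not_or] at hw2
          obtain ⟨⟨⟨hwS, hwT⟩, hwU⟩, -⟩ := hw2
          obtain ⟨u, hu, hF'⟩ := mem_nb.1 hw1
          refine mem_sec.2 ⟨fun h => hwS (h ▸ hvS), fun h => ?_, u,
            mem_out.1 (mem_inter.1 hu).1, ?_⟩
          · rcases hstep v hvS w h with h' | h' | h'
            · exact hwS h'
            · exact hwT h'
            · exact hwU (mem_inter.2 ⟨mem_out.2 h, h'⟩)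
          · rcases hF' with rfl | hr
            · exact absurd hu hwU
            · exact hr
      · rw [disjoint_left]
        intro w hw hw'
        have h2 := (mem_sdiff.1 hw').2
        simp only [mem_union, not_or] at h2
        rcases hsec' w (mem_sdiff.1 hw).1 with h | h | h
        · exact h2.1.1.1 h
        · exact h2.1.1.2 h
        · exact h2.2 h
    simp only [φ, ← hG] at e2
    omega
  · have e1 : out r v ⊆ out r' v := fun u hu =>
      mem_out.2 ⟨mem_out.1 hu, fun h => hvS h.1⟩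
    have e2 : sec r' v ⊆ sec r v := by
      intro w hw
      obtain ⟨h1, h2, u, h3, h4⟩ := mem_sec.1 hw
      exact mem_sec.2 ⟨h1, fun h => h2 ⟨h, fun h' => hvS h'.1⟩, u, h3.1, h4.1⟩
    have := card_le_card e1
    have := card_le_card e2
    omega

theorem seymour [Nonempty V] (n : ℕ) : ∀ r : V → V → Prop, (arcs r).card = n →
    (∀ u v, r u v → ¬ r v u) → ∃ v, (out r v).card ≤ (sec r v).card := by
  induction n using Nat.strong_induction_on with
  | _ n ih =>
  intro r hn hopp
  by_contra hno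
  push Not at hno
  refine no_concave (fun a b => a = b ∨ r a b) (fun a => Or.inl rfl) ?_ ?_
    (concave_of_minimal r hno (fun r' h hlt => ih _ (hn ▸ hlt) r' rfl
      (fun u v h1 h2 => hopp u v (h _ _ h1) (h _ _ h2))))
  · rintro a b (h | h) (h' | h')
    · exact h
    · exact h
    · exact h'.symm
    · exact absurd h' (hopp _ _ h)
  · intro a
    obtain ⟨b, hb⟩ := card_pos.1 (lt_of_le_of_lt (Nat.zero_le _) (hno a))
    have hb' := mem_out.1 hb
    refine ⟨b, fun h => ?_, Or.inr hb'⟩
    subst h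
    exact hopp _ _ hb' hb'

end Crest.Agent.R57
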