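import Crest.Agent.R57.Prune

/-!
# Row 57: strict concavity of neighbourhood sizes is impossible
-/

set_option autoImplicit false

namespace Crest.Agent.R57

open Finset

open scoped Classical

variable {V : Type*} [Fintype V]

/-- closed out-neighbourhood of a set -/
noncomputable def nb (F : V → V → Prop) (S : Finset V) : Finset V :=
  univ.filter (fun b => ∃ a ∈ S, F a b)

theorem mem_nb {F : V → V → Prop} {S : Finset V} {b : V} : b ∈ nb F S ↔ ∃ a ∈ S, F a b := by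
  simp [nb]

/-- a row of a set of pairs -/
noncomputable def row (R : Finset (V × V)) (s : V) : Finset V :=
  univ.filter (fun p => (s, p) ∈ R)

/-- a column of a set of pairs -/
noncomputable def col (R : Finset (V × V)) (p : V) : Finset V :=
  univ.filter (fun s => (s, p) ∈ R)

theorem mem_row {R : Finset (V × V)} {s p : V} : p ∈ row R s ↔ (s, p) ∈ R := by simp [row]

theorem mem_col {R : Finset (V × V)} {s p : V} : s ∈ col R p ↔ (s, p) ∈ R := by simp [col]

theorem card_eq_sum_row (R : Finset (V × V)) : R.card = ∑ s, (row R s).card := by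
  rw [card_eq_sum_card_fiberwise (f := Prod.fst) (s := R) (t := univ) (fun _ _ => by simp)]
  refine sum_congr rfl (fun s _ => ?_)
  symm
  apply card_bij (fun p _ => (s, p))
  · intro p hp
    exact mem_filter.2 ⟨mem_row.1 hp, rfl⟩
  · intro p _ q _ h
    simpa using h
  · rintro ⟨a, b⟩ hx
    obtain ⟨h1, h2⟩ := mem_filter.1 hx
    simp only at h2
    subst h2
    exact ⟨b, mem_row.2 h1, rfl⟩

theorem card_eq_sum_col (R : Finset (V × V)) : R.card = ∑ p, (col R p).card := by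
  rw [card_eq_sum_card_fiberwise (f := Prod.snd) (s := R) (t := univ) (fun _ _ => by simp)]
  refine sum_congr rfl (fun p _ => ?_)
  symm
  apply card_bij (fun s _ => (s, p))
  · intro s hs
    exact mem_filter.2 ⟨mem_col.1 hs, rfl⟩
  · intro s _ q _ h
    simpa using h
  · rintro ⟨a, b⟩ hx
    obtain ⟨h1, h2⟩ := mem_filter.1 hx
    simp only at h2
    subst h2
    exact ⟨a, mem_col.2 h1, rfl⟩

theorem row_opL (F : V → V → Prop) (R : Finset (V × V)) (s : V) :
    row (opL F R) s = nb F (row R s) := by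
  ext p
  simp only [mem_row, mem_opL, mem_nb]

theorem col_opM (F : V → V → Prop) (R : Finset (V × V)) (p : V) :
    col (opM F R) p = nb F (col R p) := by
  ext s
  simp only [mem_col, mem_opM, mem_nb]

/-- the diagonal -/
noncomputable def dg (V : Type*) [Fintype V] : Finset (V × V) := univ.filter (fun z => z.1 = z.2)

theorem mem_dg {z : V × V} : z ∈ dg V ↔ z.1 = z.2 := by simp [dg]

theorem no_concave [Nonempty V] (F : V → V → Prop) (hrefl : ∀ a, F a a)
    (hanti : ∀ a b, F a b → F b a → a = b) (hout : ∀ a, ∃ b, b ≠ a ∧ F a b)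
    (hc : ∀ S : Finset V, nb F S ≠ S → (nb F (nb F S)).card + S.card < 2 * (nb F S).card) :
    False := by
  have hweak : ∀ S : Finset V, (nb F (nb F S)).card + S.card ≤ 2 * (nb F S).card := by
    intro S
    by_cases h : nb F S = S
    · rw [h, h]; omega
    · exact (hc S h).le
  have hsub : ∀ S : Finset V, S ⊆ nb F S := fun S a ha => mem_nb.2 ⟨a, ha, hrefl a⟩
  -- a vertex all of whose closed supersets contain an in-neighbour
  obtain ⟨s0, hs0⟩ : ∃ s0 : V, ∀ S : Finset V, s0 ∈ S → nb F S = S →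
      ∃ t ∈ S, t ≠ s0 ∧ F t s0 := by
    obtain ⟨C, ⟨hCne, hCcl⟩, hmin⟩ :=
      exists_minimalFor_of_wellFoundedLT (fun C : Finset V => C.Nonempty ∧ nb F C = C)
        (fun C => C.card) ⟨univ, univ_nonempty, univ_subset_iff.1 (hsub _)⟩
    obtain ⟨s0, hs0⟩ := hCne
    refine ⟨s0, fun S hS hScl => ?_⟩
    have hCS : C ⊆ S := by
      have h1 : nb F (C ∩ S) = C ∩ S := by
        refine Subset.antisymm ?_ (hsub _)
        intro b hb
        obtain ⟨a, ha, hF⟩ := mem_nb.1 hb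
        refine mem_inter.2 ⟨?_, ?_⟩
        · rw [← hCcl]; exact mem_nb.2 ⟨a, (mem_inter.1 ha).1, hF⟩
        · rw [← hScl]; exact mem_nb.2 ⟨a, (mem_inter.1 ha).2, hF⟩
      have h2 := hmin (j := C ∩ S) ⟨⟨s0, mem_inter.2 ⟨hs0, hS⟩⟩, h1⟩
        (card_le_card inter_subset_left)
      have h3 : C ∩ S = C := eq_of_subset_of_card_le inter_subset_left h2
      rw [← h3]; exact inter_subset_right
    by_contra hno
    push Not at hno
    obtain ⟨b, hb, hF⟩ := hout s0
    have hbC : b ∈ C := by rw [← hCcl]; exact mem_nb.2 ⟨s0, hs0, hF⟩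
    have h1 : nb F (C.erase s0) = C.erase s0 := by
      refine Subset.antisymm ?_ (hsub _)
      intro c hc'
      obtain ⟨a, ha, hF'⟩ := mem_nb.1 hc'
      obtain ⟨ha1, ha2⟩ := mem_erase.1 ha
      refine mem_erase.2 ⟨?_, ?_⟩
      · rintro rfl
        exact hno a (hCS ha2) ha1 hF'
      · rw [← hCcl]; exact mem_nb.2 ⟨a, ha2, hF'⟩
    have h2 := hmin (j := C.erase s0) ⟨⟨b, mem_erase.2 ⟨hb, hbC⟩⟩, h1⟩
      (card_le_card (erase_subset _ _))
    have h3 := card_erase_lt_of_mem hs0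
    simp only at h2
    omega
  -- feasible pairs
  let feas : Finset (V × V) × Finset (V × V) → Prop := fun XY =>
    (∀ x ∈ XY.1, ¬ ∃ t, F x.2 t ∧ F t x.1) ∧ (∀ y ∈ XY.2, ¬ ∃ t, F y.1 t ∧ F t y.2) ∧
      Disjoint (opL F XY.1) (opM F XY.2)
  let J : Finset (V × V) × Finset (V × V) → ℤ := fun XY =>
    (XY.1.card : ℤ) + XY.2.card - (opL F (XY.1 ∪ dg V)).card - (opM F (XY.2 ∪ dg V)).card
  have hcount : ∀ XY, feas XY → (opL F (XY.1 ∪ dg V)).card + (opM F (XY.2 ∪ dg V)).card +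
      (opL F (XY.1 ∪ dg V) ∪ opM F (XY.2 ∪ dg V))ᶜ.card =
        Fintype.card (V × V) + (dg V).card := by
    rintro ⟨X, Y⟩ ⟨h1, h2, h3⟩
    have hint : opL F (X ∪ dg V) ∩ opM F (Y ∪ dg V) = dg V := by
      ext c
      constructor
      · intro hc'
        obtain ⟨p, hp, hF⟩ := mem_opL.1 (mem_inter.1 hc').1
        obtain ⟨s, hs, hF'⟩ := mem_opM.1 (mem_inter.1 hc').2
        rcases mem_union.1 hp with hp | hp <;> rcases mem_union.1 hs with hs | hs
        · exact absurd (mem_opM.2 ⟨s, hs, hF'⟩) (disjoint_left.1 h3 (mem_opL.2 ⟨p, hp, hF⟩))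
        · have e : s = c.2 := mem_dg.1 hs
          exact absurd ⟨c.2, hF, e ▸ hF'⟩ (h1 _ hp)
        · have e : c.1 = p := mem_dg.1 hp
          exact absurd ⟨c.1, hF', e ▸ hF⟩ (h2 _ hs)
        · have e : s = c.2 := mem_dg.1 hs
          have e' : c.1 = p := mem_dg.1 hp
          exact mem_dg.2 (hanti _ _ (e' ▸ hF) (e ▸ hF'))
      · intro hc'
        have e : c.1 = c.2 := mem_dg.1 hc'
        exact mem_inter.2 ⟨mem_opL.2 ⟨c.2, mem_union_right _ hc', hrefl _⟩,
          mem_opM.2 ⟨c.1, mem_union_right _ hc', hrefl _⟩⟩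
    have e1 := card_union_add_card_inter (opL F (X ∪ dg V)) (opM F (Y ∪ dg V))
    have e2 := card_add_card_compl (opL F (X ∪ dg V) ∪ opM F (Y ∪ dg V))
    rw [hint] at e1
    simp only
    omega
  have hfe : feas (∅, ∅) := by
    refine ⟨by simp, by simp, ?_⟩
    have : opL F (∅ : Finset (V × V)) = ∅ := by simp [opL]
    simp only [this]
    exact disjoint_empty_left _
  obtain ⟨⟨X, Y⟩, hXY, hmax⟩ := exists_max_image (univ.filter feas) J
    ⟨(∅, ∅), mem_filter.2 ⟨mem_univ _, hfe⟩⟩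
  have hXY' := (mem_filter.1 hXY).2
  have hC := hcount _ hXY'
  have hC0 := hcount _ hfe
  obtain ⟨hX1, hY2, -⟩ := hXY'
  simp only [empty_union] at hC0 hC hX1 hY2
  set U := opL F (X ∪ dg V) with hU
  set W := opM F (Y ∪ dg V) with hW
  set U0 := opL F (dg V) with hU0
  set W0 := opM F (dg V) with hW0
  have hXc : (X ∪ dg V).card = X.card + (dg V).card := by
    apply card_union_of_disjoint
    rw [disjoint_left]
    intro x hx hx'
    have e : x.1 = x.2 := mem_dg.1 hx'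
    exact hX1 x hx ⟨x.2, hrefl _, e ▸ hrefl _⟩
  have hYc : (Y ∪ dg V).card = Y.card + (dg V).card := by
    apply card_union_of_disjoint
    rw [disjoint_left]
    intro x hx hx'
    have e : x.1 = x.2 := mem_dg.1 hx'
    exact hY2 x hx ⟨x.2, e ▸ hrefl _, hrefl _⟩
  have hA : (opL F U).card + (X ∪ dg V).card < 2 * U.card := by
    rw [card_eq_sum_row (opL F U), card_eq_sum_row (X ∪ dg V), card_eq_sum_row U, mul_sum,
      ← sum_add_distrib]
    simp only [hU, row_opL]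
    refine sum_lt_sum (fun s _ => hweak _) ⟨s0, mem_univ _, hc _ (fun hcl => ?_)⟩
    obtain ⟨t, ht, hts, hF⟩ := hs0 _ (mem_row.2 (mem_union_right _ (mem_dg.2 rfl))) hcl
    rcases mem_union.1 (mem_row.1 ht) with h | h
    · exact hX1 _ h ⟨s0, hF, hrefl _⟩
    · exact hts (mem_dg.1 h).symm
  have hB : (opM F W).card + (Y ∪ dg V).card ≤ 2 * W.card := by
    rw [card_eq_sum_col (opM F W), card_eq_sum_col (Y ∪ dg V), card_eq_sum_col W, mul_sum,
      ← sum_add_distrib]
    simp only [hW, col_opM]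
    exact sum_le_sum (fun s _ => hweak _)
  have hP1 : ∀ x ∈ (opM F W)ᶜ, ¬ ∃ t, F x.2 t ∧ F t x.1 := by
    rintro x hx ⟨t, h1, h2⟩
    exact mem_compl.1 hx (mem_opM.2 ⟨t, mem_opM.2 ⟨x.2, mem_union_right _ (mem_dg.2 rfl), h1⟩,
      h2⟩)
  have hQ2 : ∀ y ∈ (opL F U)ᶜ, ¬ ∃ t, F y.1 t ∧ F t y.2 := by
    rintro y hy ⟨t, h1, h2⟩
    exact mem_compl.1 hy (mem_opL.2 ⟨t, mem_opL.2 ⟨y.1, mem_union_right _ (mem_dg.2 rfl), h1⟩,
      h2⟩)
  have hLW : ∀ c ∈ opL F (opM F W)ᶜ, c ∉ W0 := by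
    intro c hc' hc0
    obtain ⟨p, hp, hF⟩ := mem_opL.1 hc'
    obtain ⟨s, hs, hF'⟩ := mem_opM.1 hc0
    have e : s = c.2 := mem_dg.1 hs
    exact hP1 _ hp ⟨c.2, hF, e ▸ hF'⟩
  have hMU : ∀ c ∈ opM F (opL F U)ᶜ, c ∉ U0 := by
    intro c hc' hc0
    obtain ⟨s, hs, hF⟩ := mem_opM.1 hc'
    obtain ⟨p, hp, hF'⟩ := mem_opL.1 hc0
    have e : c.1 = p := mem_dg.1 hp
    exact hQ2 _ hs ⟨c.1, hF, e ▸ hF'⟩
  obtain ⟨X', Y', hX', hY', hdis, hineq⟩ := prune (F := F) _ (opM F W)ᶜ (opL F U)ᶜ (U0 ∪ W0)ᶜ rfl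
    (by
      intro c hc'
      obtain ⟨h1, h2⟩ := mem_inter.1 hc'
      refine mem_compl.2 (fun h => ?_)
      rcases mem_union.1 h with h | h
      · exact hMU c h2 h
      · exact hLW c h1 h)
  have hH : (opK F (opM F W)ᶜ ∩ opL' F (opL F U)ᶜ).card ≤ (U ∪ W)ᶜ.card := by
    apply card_le_card
    intro d hd
    obtain ⟨h1, h2⟩ := mem_inter.1 hd
    obtain ⟨s, hs, hF⟩ := mem_opK.1 h1
    obtain ⟨p, hp, hF'⟩ := mem_opL'.1 h2
    refine mem_compl.2 (fun h => ?_)
    rcases mem_union.1 h with h | h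
    · exact mem_compl.1 hp (mem_opL.2 ⟨d.2, h, hF'⟩)
    · exact mem_compl.1 hs (mem_opM.2 ⟨d.1, h, hF⟩)
  have hU' : (opL F (X' ∪ dg V)).card ≤ U0.card + (opL F X' ∩ (U0 ∪ W0)ᶜ).card := by
    refine le_trans (card_le_card ?_) (card_union_le _ _)
    intro c hc'
    by_cases h0 : c ∈ U0
    · exact mem_union_left _ h0
    · obtain ⟨p, hp, hF⟩ := mem_opL.1 hc'
      rcases mem_union.1 hp with hp | hp
      · refine mem_union_right _ (mem_inter.2 ⟨mem_opL.2 ⟨p, hp, hF⟩, mem_compl.2 (fun h => ?_)⟩)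
        rcases mem_union.1 h with h | h
        · exact h0 h
        · exact hLW c (mem_opL.2 ⟨p, hX' hp, hF⟩) h
      · exact absurd (mem_opL.2 ⟨p, hp, hF⟩) h0
  have hW' : (opM F (Y' ∪ dg V)).card ≤ W0.card + (opM F Y' ∩ (U0 ∪ W0)ᶜ).card := by
    refine le_trans (card_le_card ?_) (card_union_le _ _)
    intro c hc'
    by_cases h0 : c ∈ W0
    · exact mem_union_left _ h0
    · obtain ⟨s, hs, hF⟩ := mem_opM.1 hc'
      rcases mem_union.1 hs with hs | hs
      · refine mem_union_right _ (mem_inter.2 ⟨mem_opM.2 ⟨s, hs, hF⟩, mem_compl.2 (fun h => ?_)⟩)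
        rcases mem_union.1 h with h | h
        · exact hMU c (mem_opM.2 ⟨s, hY' hs, hF⟩) h
        · exact h0 h
      · exact absurd (mem_opM.2 ⟨s, hs, hF⟩) h0
  have hfe' : feas (X', Y') :=
    ⟨fun x hx => hP1 x (hX' hx), fun y hy => hQ2 y (hY' hy), hdis⟩
  have hJ := hmax (X', Y') (mem_filter.2 ⟨mem_univ _, hfe'⟩)
  simp only [J, ← hU, ← hW] at hJ
  have hP := card_add_card_compl (opM F W)
  have hQ := card_add_card_compl (opL F U)
  omega

end Crest.Agent.R57
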