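import Mathlib

/-!
# Row 57: the pruning inequality

`F` is an arbitrary relation on a finite type `V`.  On `V × V` we have the four dilations
`opL` (second coordinate forwards), `opM` (first coordinate forwards), `opK` (first coordinate
backwards), `opL'` (second coordinate backwards).
-/

set_option autoImplicit false

namespace Crest.Agent.R57

open Finset

open scoped Classical

variable {V : Type*} [Fintype V] (F : V → V → Prop)

/-- second coordinate forwards -/
noncomputable def opL (P : Finset (V × V)) : Finset (V × V) :=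
  univ.filter (fun c => ∃ p, (c.1, p) ∈ P ∧ F p c.2)

/-- first coordinate forwards -/
noncomputable def opM (Q : Finset (V × V)) : Finset (V × V) :=
  univ.filter (fun c => ∃ s, (s, c.2) ∈ Q ∧ F s c.1)

/-- first coordinate backwards -/
noncomputable def opK (P : Finset (V × V)) : Finset (V × V) :=
  univ.filter (fun d => ∃ s, (s, d.2) ∈ P ∧ F d.1 s)

/-- second coordinate backwards -/
noncomputable def opL' (Q : Finset (V × V)) : Finset (V × V) :=
  univ.filter (fun d => ∃ p, (d.1, p) ∈ Q ∧ F d.2 p)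

variable {F}

theorem mem_opL {P : Finset (V × V)} {c : V × V} :
    c ∈ opL F P ↔ ∃ p, (c.1, p) ∈ P ∧ F p c.2 := by simp [opL]

theorem mem_opM {Q : Finset (V × V)} {c : V × V} :
    c ∈ opM F Q ↔ ∃ s, (s, c.2) ∈ Q ∧ F s c.1 := by simp [opM]

theorem mem_opK {P : Finset (V × V)} {d : V × V} :
    d ∈ opK F P ↔ ∃ s, (s, d.2) ∈ P ∧ F d.1 s := by simp [opK]

theorem mem_opL' {Q : Finset (V × V)} {d : V × V} :
    d ∈ opL' F Q ↔ ∃ p, (d.1, p) ∈ Q ∧ F d.2 p := by simp [opL']

theorem opL_mono {P P' : Finset (V × V)} (h : P ⊆ P') : opL F P ⊆ opL F P' := by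
  intro c hc
  obtain ⟨p, hp, hF⟩ := mem_opL.1 hc
  exact mem_opL.2 ⟨p, h hp, hF⟩

theorem opM_mono {P P' : Finset (V × V)} (h : P ⊆ P') : opM F P ⊆ opM F P' := by
  intro c hc
  obtain ⟨p, hp, hF⟩ := mem_opM.1 hc
  exact mem_opM.2 ⟨p, h hp, hF⟩

theorem opK_mono {P P' : Finset (V × V)} (h : P ⊆ P') : opK F P ⊆ opK F P' := by
  intro c hc
  obtain ⟨p, hp, hF⟩ := mem_opK.1 hc
  exact mem_opK.2 ⟨p, h hp, hF⟩

theorem opL'_mono {P P' : Finset (V × V)} (h : P ⊆ P') : opL' F P ⊆ opL' F P' := by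
  intro c hc
  obtain ⟨p, hp, hF⟩ := mem_opL'.1 hc
  exact mem_opL'.2 ⟨p, h hp, hF⟩

/-- comparing cardinalities row by row -/
theorem card_le_of_rows {A B : Finset (V × V)}
    (h : ∀ s, (A.filter (fun x => x.1 = s)).card ≤ (B.filter (fun x => x.1 = s)).card) :
    A.card ≤ B.card := by
  rw [card_eq_sum_card_fiberwise (f := Prod.fst) (s := A) (t := univ) (fun _ _ => by simp),
    card_eq_sum_card_fiberwise (f := Prod.fst) (s := B) (t := univ) (fun _ _ => by simp)]
  exact sum_le_sum (fun s _ => h s)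

/-- Hall's condition for a minimal non-expanding subset -/
theorem hall_of_minimal {N X0 : Finset (V × V)} (h0 : (opL F X0 ∩ N).card ≤ X0.card)
    (hmin : ∀ X1, X1 ⊆ X0 → X1.Nonempty → X1.card < X0.card → X1.card < (opL F X1 ∩ N).card)
    (C : Finset (V × V)) (hC : C ⊆ opL F X0 ∩ N) :
    C.card ≤ (X0.filter (fun x => ∃ c ∈ C, c.1 = x.1 ∧ F x.2 c.2)).card := by
  set XC := X0.filter (fun x => ¬ ∃ c ∈ C, c.1 = x.1 ∧ F x.2 c.2) with hXC
  have hsplit := card_filter_add_card_filter_not (s := X0)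
    (fun x => ∃ c ∈ C, c.1 = x.1 ∧ F x.2 c.2)
  rw [← hXC] at hsplit
  have hCle := card_le_card hC
  rcases XC.eq_empty_or_nonempty with he | hne
  · rw [he, card_empty] at hsplit
    omega
  · rcases C.eq_empty_or_nonempty with hCe | ⟨c0, hc0⟩
    · simp [hCe]
    · have hlt : XC.card < X0.card := by
        apply card_lt_card
        refine ⟨filter_subset _ _, fun hsub => ?_⟩
        obtain ⟨p, hp, hF⟩ := mem_opL.1 (mem_inter.1 (hC hc0)).1
        exact (mem_filter.1 (hsub hp)).2 ⟨c0, hc0, rfl, hF⟩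
      have h1 := hmin XC (filter_subset _ _) hne hlt
      have h2 : opL F XC ∩ N ⊆ (opL F X0 ∩ N) \ C := by
        intro c hc
        obtain ⟨hc1, hc2⟩ := mem_inter.1 hc
        refine mem_sdiff.2 ⟨mem_inter.2 ⟨opL_mono (filter_subset _ _) hc1, hc2⟩, fun hcC => ?_⟩
        obtain ⟨p, hp, hF⟩ := mem_opL.1 hc1
        exact (mem_filter.1 hp).2 ⟨c, hcC, rfl, hF⟩
      have h3 := card_le_card h2
      rw [card_sdiff_of_subset hC] at h3
      omega

/-- the elements of `Q` in conflict with an overloaded piece of a row are charged to different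
backward corners -/
theorem charge {N X0 Q : Finset (V × V)} {s0 : V} (hrow : ∀ x ∈ X0, x.1 = s0)
    (hN : opL F X0 ∩ opM F Q ⊆ N)
    (hall : ∀ C, C ⊆ opL F X0 ∩ N →
      C.card ≤ (X0.filter (fun x => ∃ c ∈ C, c.1 = x.1 ∧ F x.2 c.2)).card) :
    (Q.filter (fun y => ∃ x ∈ X0, F y.1 x.1 ∧ F x.2 y.2)).card ≤
      (opK F X0 ∩ opL' F Q).card := by
  apply card_le_of_rows
  intro s'
  set T := (Q.filter (fun y => ∃ x ∈ X0, F y.1 x.1 ∧ F x.2 y.2)).filter (fun y => y.1 = s')
    with hT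
  have hTmem : ∀ y ∈ T, y ∈ Q ∧ y.1 = s' ∧ ∃ x ∈ X0, F y.1 x.1 ∧ F x.2 y.2 := by
    intro y hy
    have h1 := mem_filter.1 hy
    have h2 := mem_filter.1 h1.1
    exact ⟨h2.1, h1.2, h2.2⟩
  have hinj : Set.InjOn (fun y : V × V => (s0, y.2)) T := by
    intro y hy y' hy' h
    have h2 : y.2 = y'.2 := by simpa using h
    exact Prod.ext ((hTmem y hy).2.1.trans (hTmem y' hy').2.1.symm) h2
  have hC : T.image (fun y : V × V => (s0, y.2)) ⊆ opL F X0 ∩ N := by
    intro c hc
    obtain ⟨y, hy, rfl⟩ := mem_image.1 hc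
    obtain ⟨hyQ, -, x, hx, hF1, hF2⟩ := hTmem y hy
    have hx1 := hrow x hx
    have hL : (s0, y.2) ∈ opL F X0 := mem_opL.2 ⟨x.2, by rw [← hx1]; exact hx, hF2⟩
    have hM : (s0, y.2) ∈ opM F Q := mem_opM.2 ⟨y.1, hyQ, by rw [← hx1]; exact hF1⟩
    exact mem_inter.2 ⟨hL, hN (mem_inter.2 ⟨hL, hM⟩)⟩
  have h1 := hall _ hC
  rw [card_image_of_injOn hinj] at h1
  refine h1.trans ?_
  apply card_le_card_of_injOn (fun x : V × V => (s', x.2))
  · intro x hx
    have hx' := mem_filter.1 (mem_coe.1 hx)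
    obtain ⟨hx0, c, hc, -, hF⟩ := hx'
    obtain ⟨y, hy, rfl⟩ := mem_image.1 hc
    obtain ⟨hyQ, hy1, x', hx', hF1, -⟩ := hTmem y hy
    refine mem_coe.2 (mem_filter.2 ⟨mem_inter.2 ⟨?_, ?_⟩, rfl⟩)
    · refine mem_opK.2 ⟨x.1, hx0, ?_⟩
      rw [hrow x hx0, ← hrow x' hx', ← hy1]
      exact hF1
    · refine mem_opL'.2 ⟨y.2, ?_, hF⟩
      rw [← hy1]
      exact hyQ
  · intro x hx x' hx' h
    have h2 : x.2 = x'.2 := by simpa using h
    have hx0 := (mem_filter.1 (mem_coe.1 hx)).1
    have hx0' := (mem_filter.1 (mem_coe.1 hx')).1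
    exact Prod.ext ((hrow x hx0).trans (hrow x' hx0').symm) h2

/-- if all rows expand strictly, they still expand after removing a column -/
theorem expand_of_strict {N P : Finset (V × V)}
    (hs : ∀ s0 X0, X0 ⊆ P → X0.Nonempty → (∀ x ∈ X0, x.1 = s0) → X0.card < (opL F X0 ∩ N).card)
    (p' : V) {X : Finset (V × V)} (hX : X ⊆ P) :
    X.card ≤ (opL F X ∩ N.filter (fun c => c.2 ≠ p')).card := by
  apply card_le_of_rows
  intro s
  rcases (X.filter (fun x => x.1 = s)).eq_empty_or_nonempty with he | hne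
  · rw [he]; simp
  · have h1 := hs s _ ((filter_subset _ _).trans hX) hne (fun x hx => (mem_filter.1 hx).2)
    have h2 : (opL F (X.filter (fun x => x.1 = s)) ∩ N).erase (s, p') ⊆
        (opL F X ∩ N.filter (fun c => c.2 ≠ p')).filter (fun x => x.1 = s) := by
      intro c hc
      obtain ⟨hc0, hc⟩ := mem_erase.1 hc
      obtain ⟨hc1, hc2⟩ := mem_inter.1 hc
      obtain ⟨p, hp, hF⟩ := mem_opL.1 hc1
      have hs' : c.1 = s := (mem_filter.1 hp).2
      refine mem_filter.2 ⟨mem_inter.2 ⟨opL_mono (filter_subset _ _) hc1,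
        mem_filter.2 ⟨hc2, fun h => hc0 (Prod.ext hs' h)⟩⟩, hs'⟩
    have h3 := card_le_card h2
    have h4 := pred_card_le_card_erase (s := opL F (X.filter (fun x => x.1 = s)) ∩ N)
      (a := (s, p'))
    omega

/-- **Pruning inequality.** -/
theorem prune (n : ℕ) : ∀ (P Q N : Finset (V × V)), P.card + Q.card = n →
    opL F P ∩ opM F Q ⊆ N →
    ∃ X Y, X ⊆ P ∧ Y ⊆ Q ∧ Disjoint (opL F X) (opM F Y) ∧
      P.card + Q.card + (opL F X ∩ N).card + (opM F Y ∩ N).card ≤
        X.card + Y.card + N.card + (opK F P ∩ opL' F Q).card := by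
  induction n using Nat.strong_induction_on with
  | _ n ih =>
  intro P Q N hn hN
  by_cases hA : ∃ X0, (X0 ⊆ P ∧ X0.Nonempty ∧ (∃ s0, ∀ x ∈ X0, x.1 = s0) ∧
      (opL F X0 ∩ N).card ≤ X0.card)
  · -- a minimal non-expanding piece of a row
    obtain ⟨X0, ⟨hXP, hXne, ⟨s0, hrow⟩, h0⟩, hmin⟩ :=
      exists_minimalFor_of_wellFoundedLT _ (fun X0 : Finset (V × V) => X0.card) hA
    have hmin' : ∀ X1, X1 ⊆ X0 → X1.Nonempty → X1.card < X0.card →
        X1.card < (opL F X1 ∩ N).card := by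
      intro X1 h1 h2 h3
      by_contra h4
      have := hmin (j := X1) ⟨h1.trans hXP, h2, ⟨s0, fun x hx => hrow x (h1 hx)⟩, by omega⟩
        h3.le
      simp only at this
      omega
    have hch := charge (Q := Q) hrow
      (fun c hc => hN (mem_inter.2 ⟨opL_mono hXP (mem_inter.1 hc).1, (mem_inter.1 hc).2⟩))
      (hall_of_minimal h0 hmin')
    set Q' := Q.filter (fun y => ¬ ∃ x ∈ X0, F y.1 x.1 ∧ F x.2 y.2) with hQ'
    have hQsplit := card_filter_add_card_filter_not (s := Q)
      (fun y => ∃ x ∈ X0, F y.1 x.1 ∧ F x.2 y.2)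
    rw [← hQ'] at hQsplit
    have hPsplit := card_sdiff_add_card_eq_card hXP
    have hXpos := hXne.card_pos
    have hdisj : ∀ c, c ∈ opL F X0 → c ∉ opM F Q' := by
      intro c hc hc'
      obtain ⟨p, hp, hF⟩ := mem_opL.1 hc
      obtain ⟨s, hs, hF'⟩ := mem_opM.1 hc'
      exact (mem_filter.1 hs).2 ⟨_, hp, hF', hF⟩
    obtain ⟨X, Y, hX, hY, hXY, hineq⟩ := ih ((P \ X0).card + Q'.card) (by omega) (P \ X0) Q'
      (N \ opL F X0) rfl (by
        intro c hc
        obtain ⟨hc1, hc2⟩ := mem_inter.1 hc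
        refine mem_sdiff.2 ⟨hN (mem_inter.2 ⟨opL_mono sdiff_subset hc1,
          opM_mono (filter_subset _ _) hc2⟩), fun h => hdisj c h hc2⟩)
    refine ⟨X0 ∪ X, Y, union_subset hXP (hX.trans sdiff_subset), hY.trans (filter_subset _ _),
      ?_, ?_⟩
    · rw [disjoint_left]
      intro c hc hc'
      obtain ⟨p, hp, hF⟩ := mem_opL.1 hc
      rcases mem_union.1 hp with hp | hp
      · exact hdisj c (mem_opL.2 ⟨p, hp, hF⟩) (opM_mono hY hc')
      · exact disjoint_left.1 hXY (mem_opL.2 ⟨p, hp, hF⟩) hc'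
    · have e1 : (X0 ∪ X).card = X0.card + X.card := by
        apply card_union_of_disjoint
        rw [disjoint_left]
        intro x hx hx'
        exact (mem_sdiff.1 (hX hx')).2 hx
      have e2 : (opL F (X0 ∪ X) ∩ N).card ≤
          (opL F X0 ∩ N).card + (opL F X ∩ (N \ opL F X0)).card := by
        refine le_trans (card_le_card ?_) (card_union_le _ _)
        intro c hc
        obtain ⟨hc1, hc2⟩ := mem_inter.1 hc
        by_cases h : c ∈ opL F X0
        · exact mem_union_left _ (mem_inter.2 ⟨h, hc2⟩)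
        · obtain ⟨p, hp, hF⟩ := mem_opL.1 hc1
          rcases mem_union.1 hp with hp | hp
          · exact absurd (mem_opL.2 ⟨p, hp, hF⟩) h
          · exact mem_union_right _ (mem_inter.2 ⟨mem_opL.2 ⟨p, hp, hF⟩, mem_sdiff.2 ⟨hc2, h⟩⟩)
      have e3 : (opM F Y ∩ N).card ≤ (opM F Y ∩ (N \ opL F X0)).card := by
        apply card_le_card
        intro c hc
        obtain ⟨hc1, hc2⟩ := mem_inter.1 hc
        exact mem_inter.2 ⟨hc1, mem_sdiff.2 ⟨hc2, fun h => hdisj c h (opM_mono hY hc1)⟩⟩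
      have e4 : (N \ opL F X0).card + (opL F X0 ∩ N).card = N.card := by
        rw [inter_comm]; exact card_sdiff_add_card_inter _ _
      have e5 : (opK F X0 ∩ opL' F Q).card + (opK F (P \ X0) ∩ opL' F Q').card ≤
          (opK F P ∩ opL' F Q).card := by
        rw [← card_union_of_disjoint]
        · apply card_le_card
          intro d hd
          rcases mem_union.1 hd with hd | hd
          · exact mem_inter.2 ⟨opK_mono hXP (mem_inter.1 hd).1, (mem_inter.1 hd).2⟩
          · exact mem_inter.2 ⟨opK_mono sdiff_subset (mem_inter.1 hd).1,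
              opL'_mono (filter_subset _ _) (mem_inter.1 hd).2⟩
        · rw [disjoint_left]
          intro d hd hd'
          obtain ⟨s, hs, hF⟩ := mem_opK.1 (mem_inter.1 hd).1
          obtain ⟨p, hp, hF'⟩ := mem_opL'.1 (mem_inter.1 hd').2
          exact (mem_filter.1 hp).2 ⟨_, hs, hF, hF'⟩
      omega
  · have hs : ∀ s0 X0, X0 ⊆ P → X0.Nonempty → (∀ x ∈ X0, x.1 = s0) →
        X0.card < (opL F X0 ∩ N).card := by
      intro s0 X0 h1 h2 h3
      by_contra h4
      exact hA ⟨X0, h1, h2, ⟨s0, h3⟩, by omega⟩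
    rcases Q.eq_empty_or_nonempty with hQ | ⟨y0, hy0⟩
    · subst hQ
      refine ⟨P, ∅, Subset.rfl, Subset.rfl, ?_, ?_⟩
      · have : opM F (∅ : Finset (V × V)) = ∅ := by simp [opM]
        rw [this]; exact disjoint_empty_right _
      · have h1 : opM F (∅ : Finset (V × V)) = ∅ := by simp [opM]
        have h2 : (opL F P ∩ N).card ≤ N.card := card_le_card inter_subset_right
        rw [h1, empty_inter, card_empty]
        omega
    · set Q' := Q.filter (fun y => y.2 ≠ y0.2) with hQ'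
      set Qc := Q.filter (fun y => ¬ y.2 ≠ y0.2) with hQc
      set N' := N.filter (fun c => c.2 ≠ y0.2) with hN'
      set Nc := N.filter (fun c => ¬ c.2 ≠ y0.2) with hNc
      have hQsplit : Q'.card + Qc.card = Q.card := card_filter_add_card_filter_not _
      have hNsplit : N'.card + Nc.card = N.card := card_filter_add_card_filter_not _
      have hpos : 0 < Qc.card := card_pos.2 ⟨y0, mem_filter.2 ⟨hy0, by simp⟩⟩
      obtain ⟨X, Y, hX, hY, -, hineq⟩ := ih (P.card + Q'.card) (by omega) P Q' N' rfl (by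
        intro c hc
        obtain ⟨hc1, hc2⟩ := mem_inter.1 hc
        refine mem_filter.2 ⟨hN (mem_inter.2 ⟨hc1, opM_mono (filter_subset _ _) hc2⟩), ?_⟩
        obtain ⟨s, hs, -⟩ := mem_opM.1 hc2
        exact (mem_filter.1 hs).2)
      have h0 : opL F (∅ : Finset (V × V)) = ∅ := by simp [opL]
      refine ⟨∅, Y ∪ Qc, empty_subset _, union_subset (hY.trans (filter_subset _ _))
        (filter_subset _ _), by rw [h0]; exact disjoint_empty_left _, ?_⟩
      have e0 := expand_of_strict hs y0.2 hX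
      rw [← hN'] at e0
      have e1 : (Y ∪ Qc).card = Y.card + Qc.card := by
        apply card_union_of_disjoint
        rw [disjoint_left]
        intro y hy hy'
        exact (mem_filter.1 hy').2 (mem_filter.1 (hY hy)).2
      have e2 : (opM F (Y ∪ Qc) ∩ N).card ≤ (opM F Y ∩ N').card + Nc.card := by
        refine le_trans (card_le_card ?_) (card_union_le _ _)
        intro c hc
        obtain ⟨hc1, hc2⟩ := mem_inter.1 hc
        by_cases h : c.2 ≠ y0.2
        · obtain ⟨s, hs, hF⟩ := mem_opM.1 hc1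
          rcases mem_union.1 hs with hs | hs
          · exact mem_union_left _ (mem_inter.2 ⟨mem_opM.2 ⟨s, hs, hF⟩, mem_filter.2 ⟨hc2, h⟩⟩)
          · exact absurd h (mem_filter.1 hs).2
        · exact mem_union_right _ (mem_filter.2 ⟨hc2, h⟩)
      have e3 : (opK F P ∩ opL' F Q').card ≤ (opK F P ∩ opL' F Q).card :=
        card_le_card (inter_subset_inter_left (opL'_mono (filter_subset _ _)))
      rw [h0, empty_inter, card_empty]
      omega

end Crest.Agent.R57
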